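import Vale.Agent.P091.TOP.Props
import Vale.Agent.P091.CH.H847.Fou

/-!
# P091, TOP: the glue of SWITCH  (helper814)
-/

set_option autoImplicit false

open Finset

noncomputable section

namespace Vale.Agent.P091.TOP.H814

open Vale.Agent.P091.CH Vale.Agent.P091.TOP

variable {K : ℕ}

/-- the two maximal functions agree -/
lemma MX_fM (p : X K → ℝ) (x : X K) : MX (fun y => ‖fM p y‖) x = MX p x := by
  unfold MX
  congr 1
  funext κ
  congr 1
  unfold ave
  congr 1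
  refine sum_congr rfl fun y _ => ?_
  have : |‖fM p y‖| = |p y| := by
    unfold fM
    rw [norm_mul, H420.norm_ch, one_mul, Complex.norm_real, Real.norm_eq_abs, abs_abs]
  simp only [this]

lemma MX_nonneg (p : X K → ℝ) (x : X K) : 0 ≤ MX p x := by
  refine le_trans ?_ (H420.ave_le_MX p x)
  unfold ave
  exact div_nonneg (Finset.sum_nonneg fun y _ => abs_nonneg _) (by positivity)

/-- a value is controlled by the maximal function -/
lemma le_MX (p : X K → ℝ) (x : X K) : |p x| ≤ MX p x := by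
  unfold MX
  refine le_trans ?_ (Finset.le_sup' _ (Finset.mem_range.2 (Nat.lt_succ_self K)))
  unfold ave
  rw [mul_div_assoc', div_eq_mul_inv, mul_comm ((2:ℝ) ^ K), mul_assoc,
    mul_inv_cancel₀ (by positivity), mul_one]
  refine le_trans ?_ (Finset.single_le_sum (f := fun y => if nrm (x - y) ≤ ((2:ℝ) ^ K)⁻¹
    then |p y| else 0) (fun y _ => by split_ifs <;> positivity) (mem_univ x))
  have : nrm (x - x) = 0 := by rw [sub_self]; unfold nrm; rw [map_zero, norm_zero]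
  rw [this, if_pos (by positivity)]

lemma ch_ne_one {t : X K} (ht : t ≠ 0) : 1 - ch 1 t ≠ 0 := by
  intro h
  have h1 : ch 1 t = 1 := (sub_eq_zero.1 h).symm
  apply ht
  have h2 : ((1 : ℤ) : ZMod (2 ^ K)) * t = 0 := by
    apply ZMod.injective_stdAddChar
    rw [AddChar.map_zero_eq_one]
    exact h1
  simpa using h2

/-- `2 Re 1/(1 - z) = 1` on the unit circle -/
lemma two_re_inv {z : ℂ} (hz : ‖z‖ = 1) (h1 : 1 - z ≠ 0) : 2 * ((1 - z)⁻¹).re = 1 := by
  have hn : Complex.normSq z = 1 := by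
    rw [Complex.normSq_eq_norm_sq, hz]; norm_num
  have hre : Complex.normSq (1 - z) = 2 * (1 - z.re) := by
    rw [Complex.normSq_apply] at hn ⊢
    simp only [Complex.sub_re, Complex.one_re, Complex.sub_im, Complex.one_im]
    nlinarith
  rw [Complex.inv_re]
  have h2 : Complex.normSq (1 - z) ≠ 0 := by
    rwa [Ne, Complex.normSq_eq_zero]
  rw [hre] at h2 ⊢
  simp only [Complex.sub_re, Complex.one_re]
  have h3 : (1 - z.re) ≠ 0 := fun h => h2 (by rw [h, mul_zero])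
  field_simp

lemma ch_MM_real (hK : 1 ≤ K) (t : X K) : ∃ w : ℝ, |w| = 1 ∧ ch (-MM K) t = (w : ℂ) := by
  have h1 : ch (-MM K) t * ch (-MM K) t = 1 := by
    rw [← H420.ch_add_left]
    have : -MM K + -MM K = -((2 ^ K : ℕ) : ℤ) := by
      unfold MM
      push_cast
      have : (2:ℤ) ^ K = 2 * 2 ^ (K - 1) := by
        rw [← pow_succ', Nat.sub_add_cancel hK]
      rw [this]; ring
    rw [this]
    unfold ch
    rw [Int.cast_neg, Int.cast_natCast, ZMod.natCast_self, neg_zero, zero_mul,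
      AddChar.map_zero_eq_one]
  rcases mul_self_eq_one_iff.1 h1 with h | h
  · exact ⟨1, by norm_num, by rw [h]; norm_num⟩
  · exact ⟨-1, by norm_num, by rw [h]; norm_num⟩

lemma ch_neg_left_mul (ξ : ℤ) (x y : X K) : ch (-ξ) x * ch ξ y = ch (-ξ) (x - y) := by
  rw [sub_eq_add_neg, H420.ch_add_right]
  congr 1
  unfold ch
  congr 1
  push_cast
  ring

lemma norm_stp_le (k : ℕ) (l ξ : ℤ) : ‖H420.stp k l ξ‖ ≤ 1 := by
  unfold H420.stp H420.aff
  rw [Complex.norm_real, Real.norm_eq_abs, abs_of_nonneg (Real.smoothTransition.nonneg _)]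
  exact Real.smoothTransition.le_one _

lemma norm_ker_stp_le (k : ℕ) (l : ℤ) (t : X K) : ‖ker (H420.stp k l) t‖ ≤ 2 ^ K := by
  unfold ker
  refine (norm_sum_le _ _).trans ?_
  have : ∀ ξ ∈ win K, ‖H420.stp k l ξ * ch ξ t‖ ≤ 1 := by
    intro ξ _
    rw [norm_mul, H420.norm_ch, mul_one]
    exact norm_stp_le k l ξ
  refine (Finset.sum_le_sum this).trans ?_
  rw [Finset.sum_const, nsmul_eq_mul, mul_one]
  unfold win
  rw [Int.card_Ico]
  have : ((2:ℤ) ^ K - 0).toNat = 2 ^ K := by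
    rw [sub_zero]
    have : (2:ℤ) ^ K = ((2 ^ K : ℕ) : ℤ) := by push_cast; rfl
    rw [this, Int.toNat_natCast]
  rw [this]
  push_cast
  exact le_rfl

/-- the real part of the fine multiplier, separated -/
lemma fine_eq (hK : 1 ≤ K) (p : X K → ℝ) (N κ : ℕ) (φ : X K → ℂ)
    (h3 : ∀ t : X K, t ≠ 0 → ker (H420.stp κ (N1 K N / 2 ^ κ)) t * (1 - ch 1 t)
      = 1 - ch (N1 K N) t * φ t) (hp : ∀ y, 0 ≤ p y) (x : X K) :
    |2 * (ch (-MM K) x * mul (H420.stp κ (N1 K N / 2 ^ κ)) (fM p) x).re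
      + ave (fun y => p y * (if x - y = 0 then 0 else
      2 * (ch (N + 1) (x - y) * φ (x - y) / (1 - ch 1 (x - y))).re))| ≤ 3 * MX p x := by
  set m := H420.stp κ (N1 K N / 2 ^ κ) with hm
  have e1 : 2 * (ch (-MM K) x * mul m (fM p) x).re
      = ave (fun y => p y * (2 * (ch (-MM K) (x - y) * ker m (x - y)).re)) := by
    rw [H847.fou1 K m (fM p) x]
    unfold aveC ave
    rw [mul_div_assoc', Finset.mul_sum, Complex.div_re]
    have hn : Complex.normSq ((2:ℂ) ^ K) = (2:ℝ) ^ K * 2 ^ K := by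
      rw [show ((2:ℂ) ^ K) = (((2:ℝ) ^ K : ℝ) : ℂ) by push_cast; rfl, Complex.normSq_ofReal]
    have hre : ((2:ℂ) ^ K).re = (2:ℝ) ^ K := by
      rw [show ((2:ℂ) ^ K) = (((2:ℝ) ^ K : ℝ) : ℂ) by push_cast; rfl, Complex.ofReal_re]
    have him : ((2:ℂ) ^ K).im = 0 := by
      rw [show ((2:ℂ) ^ K) = (((2:ℝ) ^ K : ℝ) : ℂ) by push_cast; rfl, Complex.ofReal_im]
    rw [hn, hre, him, mul_zero, zero_div, add_zero]
    have e2 : (∑ i : X K, ch (-MM K) x * (fM p i * ker m (x - i))).re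
        = ∑ i : X K, p i * (ch (-MM K) (x - i) * ker m (x - i)).re := by
      rw [Complex.re_sum]
      refine sum_congr rfl fun i _ => ?_
      have : ch (-MM K) x * (fM p i * ker m (x - i))
          = ((p i : ℝ) : ℂ) * (ch (-MM K) (x - i) * ker m (x - i)) := by
        rw [← ch_neg_left_mul]
        unfold fM
        ring
      rw [this, Complex.re_ofReal_mul]
    rw [e2]
    have h2K : (2:ℝ) ^ K ≠ 0 := by positivity
    have e3 : ∑ y : X K, p y * (2 * (ch (-MM K) (x - y) * ker m (x - y)).re)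
        = 2 * ∑ i : X K, p i * (ch (-MM K) (x - i) * ker m (x - i)).re := by
      rw [Finset.mul_sum]
      exact sum_congr rfl fun i _ => by ring
    rw [e3]
    field_simp
  rw [e1]
  have e4 : ave (fun y => p y * (2 * (ch (-MM K) (x - y) * ker m (x - y)).re))
      + ave (fun y => p y * (if x - y = 0 then 0 else
      2 * (ch (N + 1) (x - y) * φ (x - y) / (1 - ch 1 (x - y))).re))
      = ave (fun y => p y * (if x - y = 0 then 2 * (ch (-MM K) (x - y) * ker m (x - y)).re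
        else 2 * (ch (-MM K) (x - y) / (1 - ch 1 (x - y))).re)) := by
    unfold ave
    rw [← add_div, ← sum_add_distrib]
    congr 1
    refine sum_congr rfl fun y _ => ?_
    beta_reduce
    by_cases h0 : x - y = 0
    · rw [if_pos h0, if_pos h0]; ring
    · rw [if_neg h0, if_neg h0]
      set t := x - y with ht
      have hne := ch_ne_one h0
      have hk : ker m t = (1 - ch (N1 K N) t * φ t) / (1 - ch 1 t) := by
        rw [eq_div_iff hne]; exact h3 t h0
      have hmul : ch (-MM K) t * ker m t = ch (-MM K) t / (1 - ch 1 t)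
          - ch (N + 1) t * φ t / (1 - ch 1 t) := by
        rw [hk]
        have : ch (-MM K) t * ch (N1 K N) t = ch (N + 1) t := by
          rw [← H420.ch_add_left]
          congr 1
          unfold N1
          ring
        rw [← this]
        ring
      rw [hmul, Complex.sub_re]
      ring
  rw [e4]
  have e5 : |ave (fun y => p y * (if x - y = 0 then 2 * (ch (-MM K) (x - y) * ker m (x - y)).re
        else 2 * (ch (-MM K) (x - y) / (1 - ch 1 (x - y))).re))|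
      ≤ ave (fun y => |p y| * (if x - y = 0 then 2 * 2 ^ K else 1)) := by
    unfold ave
    rw [abs_div, abs_of_pos (by positivity : (0:ℝ) < 2 ^ K)]
    apply div_le_div_of_nonneg_right _ (by positivity)
    refine (abs_sum_le_sum_abs _ _).trans (sum_le_sum fun y _ => ?_)
    beta_reduce
    rw [abs_mul]
    apply mul_le_mul_of_nonneg_left _ (abs_nonneg _)
    by_cases h0 : x - y = 0
    · rw [if_pos h0, if_pos h0, abs_mul, abs_two]
      apply mul_le_mul_of_nonneg_left _ (by norm_num)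
      refine (Complex.abs_re_le_norm _).trans ?_
      rw [norm_mul, H420.norm_ch, one_mul]
      exact norm_ker_stp_le _ _ _
    · rw [if_neg h0, if_neg h0]
      obtain ⟨w, hw1, hw2⟩ := ch_MM_real hK (x - y)
      have : (ch (-MM K) (x - y) / (1 - ch 1 (x - y))).re = w * ((1 - ch 1 (x - y))⁻¹).re := by
        rw [hw2, div_eq_mul_inv, Complex.re_ofReal_mul]
      rw [this]
      have h2 := two_re_inv (H420.norm_ch 1 (x - y)) (ch_ne_one h0)
      have h3' : 2 * (w * ((1 - ch 1 (x - y))⁻¹).re) = w := by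
        rw [← mul_assoc, mul_comm 2 w, mul_assoc, h2, mul_one]
      rw [h3', hw1]
  refine e5.trans ?_
  have e6 : ave (fun y => |p y| * (if x - y = 0 then 2 * 2 ^ K else 1))
      ≤ ave (fun y => |p y|) + 2 * |p x| := by
    unfold ave
    rw [div_add' _ _ _ (by positivity : (2:ℝ) ^ K ≠ 0)]
    apply div_le_div_of_nonneg_right _ (by positivity)
    have : ∀ y : X K, |p y| * (if x - y = 0 then 2 * 2 ^ K else 1)
        ≤ |p y| + (if y = x then 2 * |p y| * 2 ^ K else 0) := by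
      intro y
      by_cases h0 : x - y = 0
      · have h1 : y = x := (sub_eq_zero.1 h0).symm
        rw [if_pos h0, if_pos h1]
        nlinarith [abs_nonneg (p y)]
      · have h1 : y ≠ x := fun h => h0 (sub_eq_zero.2 h.symm)
        rw [if_neg h0, if_neg h1]
        linarith
    refine (sum_le_sum fun y _ => this y).trans ?_
    rw [sum_add_distrib, Finset.sum_ite_eq' univ x, if_pos (mem_univ x)]
  refine e6.trans ?_
  have h1 := H420.ave_le_MX p x
  have h2 := le_MX p x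
  linarith

lemma e_add (s t : ℝ) : Spec.e (s + t) = Spec.e s * Spec.e t := by
  unfold Spec.e
  rw [← Complex.exp_add]
  congr 1
  push_cast
  ring

lemma norm_e (t : ℝ) : ‖Spec.e t‖ = 1 := by
  unfold Spec.e
  have : 2 * (Real.pi : ℂ) * Complex.I * (t : ℂ) = ((2 * Real.pi * t : ℝ) : ℂ) * Complex.I := by
    push_cast; ring
  rw [this, Complex.norm_exp_ofReal_mul_I]

lemma im_e (t : ℝ) : (Spec.e t).im = Real.sin (2 * Real.pi * t) := by
  unfold Spec.e
  have : 2 * (Real.pi : ℂ) * Complex.I * (t : ℂ) = ((2 * Real.pi * t : ℝ) : ℂ) * Complex.I := by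
    push_cast; ring
  rw [this, Complex.exp_ofReal_mul_I_im]

/-- the Petermichl sum is controlled by the average over the grids -/
lemma pet_le (h5 : P_S5) (K κ ρ m N : ℕ) (p : X K → ℝ) (x : X K) (hK : κ + ρ + 3 ≤ K)
    (hm : K - ρ - κ - 3 ≤ m) :
    |∑ t ∈ Ioo (-(2:ℤ) ^ K) (2 ^ K), p (x - (t : X K)) *
        Real.sin (2 * Real.pi * (N + 1) * t / 2 ^ K) * PET.PP (2 ^ ρ) (K - ρ - κ - 3) t|
      ≤ 16 * ∑ k ∈ range (2 ^ ρ), ∑ a ∈ Ico (0:ℤ) (((2 ^ ρ + k : ℕ) : ℤ) * 2 ^ (m + 1)),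
        (1 / (((2 ^ ρ + k : ℕ) : ℝ) * (((2 ^ ρ + k : ℕ) : ℝ) * 2 ^ (m + 1))))
          * ‖PET.Sh (2 ^ ρ + k) (K - ρ - κ - 3) a (Fc p (N + 1)) (x.val : ℤ)‖ := by
  set kap := K - ρ - κ - 3 with hkap
  have hB : 4 * ((2 ^ ρ : ℕ) : ℤ) * 2 ^ kap ≤ 2 ^ K := by
    have : (2:ℤ) ^ K = 2 ^ ρ * 2 ^ kap * (2 ^ κ * 8) := by
      have e : K = ρ + kap + (κ + 3) := by omega
      conv_lhs => rw [e]
      rw [pow_add, pow_add, pow_add]
      norm_num
    rw [this]
    push_cast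
    have h1 : (1:ℤ) ≤ 2 ^ κ := one_le_pow₀ (by norm_num)
    have h2 : (0:ℤ) < 2 ^ ρ * 2 ^ kap := by positivity
    nlinarith
  have key := h5 (2 ^ ρ) kap m (Fc p (N + 1)) (x.val : ℤ) (2 ^ K) Nat.one_le_two_pow hm hB
  set Z := ∑ k ∈ range (2 ^ ρ), ∑ a ∈ Ico (0:ℤ) (((2 ^ ρ + k : ℕ) : ℤ) * 2 ^ (m + 1)),
      ((1 / (((2 ^ ρ + k : ℕ) : ℝ) * (((2 ^ ρ + k : ℕ) : ℝ) * 2 ^ (m + 1))) : ℝ) : ℂ)
        * PET.Sh (2 ^ ρ + k) kap a (Fc p (N + 1)) (x.val : ℤ) with hZ
  have e1 : ∑ t ∈ Ioo (-(2:ℤ) ^ K) (2 ^ K), p (x - (t : X K)) *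
        Real.sin (2 * Real.pi * (N + 1) * t / 2 ^ K) * PET.PP (2 ^ ρ) kap t
      = 16 * (Spec.e ((N + 1) * (x.val : ℤ) / 2 ^ K) * Z).im := by
    rw [key, Finset.mul_sum, Complex.im_sum, Finset.mul_sum]
    refine sum_congr rfl fun t _ => ?_
    have e2 : Spec.e ((N + 1) * (x.val : ℤ) / 2 ^ K)
        * (((PET.PP (2 ^ ρ) kap t / 16 : ℝ) : ℂ) * Fc p (N + 1) ((x.val : ℤ) - t))
        = ((PET.PP (2 ^ ρ) kap t / 16 * p (x - (t : X K)) : ℝ) : ℂ)
          * Spec.e ((N + 1) * t / 2 ^ K) := by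
      unfold Fc
      have e3 : Spec.e ((N + 1) * (x.val : ℤ) / 2 ^ K)
          * Spec.e (-((N + 1) * (((x.val : ℤ) - t : ℤ) : ℝ) / 2 ^ K))
          = Spec.e ((N + 1) * t / 2 ^ K) := by
        rw [← e_add]
        congr 1
        push_cast
        ring
      have e4 : ((((x.val : ℤ) - t : ℤ)) : X K) = x - (t : X K) := by
        push_cast
        rw [ZMod.natCast_zmod_val]
      rw [← e3, e4]
      push_cast
      ring
    rw [e2, Complex.im_ofReal_mul, im_e]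
    have e5 : 2 * Real.pi * (((N:ℝ) + 1) * (t:ℝ) / 2 ^ K) = 2 * Real.pi * (N + 1) * t / 2 ^ K := by
      ring
    rw [e5]
    ring
  rw [e1, abs_mul]
  have h16 : |(16:ℝ)| = 16 := by norm_num
  rw [h16]
  apply mul_le_mul_of_nonneg_left _ (by norm_num)
  refine (Complex.abs_im_le_norm _).trans ?_
  rw [norm_mul, norm_e, one_mul, hZ]
  refine (norm_sum_le _ _).trans (sum_le_sum fun k _ => ?_)
  refine (norm_sum_le _ _).trans (sum_le_sum fun a _ => ?_)
  rw [norm_mul, Complex.norm_real, Real.norm_eq_abs, abs_of_nonneg (by positivity)]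

/-- **SWITCH, glue** -/
theorem sw_of (h1 : P_S1) (h3 : P_S3) (h4 : P_S4) (h5 : P_S5) : P_SW := by
  obtain ⟨A, h3⟩ := h3
  obtain ⟨c, h4⟩ := h4
  obtain ⟨C, h4⟩ := h4 A
  refine ⟨11 + |C| + 16 * |c|, ?_⟩
  intro K κ ρ m N p Bp x hK hρ hm hp hB hN
  have hBp : 0 ≤ Bp := (hp x).trans (hB x)
  -- numerical facts
  have hKz : (2:ℤ) ^ K = 2 * 2 ^ (K - 1) := by
    rw [← pow_succ', Nat.sub_add_cancel (by omega)]
  have hNz : 8 * ((N:ℤ) + 1) ≤ 2 ^ K := by exact_mod_cast hN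
  have hκ4 : 4 * (2:ℤ) ^ κ ≤ 2 ^ (K - 1) := by
    have : 4 * (2:ℤ) ^ κ = 2 ^ (κ + 2) := by rw [pow_add]; ring
    rw [this]
    exact pow_le_pow_right₀ (by norm_num) (by omega)
  have hN1lo : 4 * 2 ^ κ ≤ N1 K N := by
    unfold N1 MM
    have : (0:ℤ) ≤ N := by positivity
    linarith
  have hN1hi : N1 K N < 2 ^ K := by
    unfold N1 MM
    rw [hKz] at hNz ⊢
    have : (0:ℤ) < 2 ^ (K - 1) := by positivity
    linarith
  obtain ⟨φ, hφ1, hφ2, hφ3⟩ := h3 K κ (N1 K N) (by omega) hN1lo hN1hi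
  have k1 := h1 K N p x (by omega) hp hN
  have k3 := fine_eq (by omega) p N κ φ hφ3 hp x
  have k4 := h4 K κ ρ N p Bp φ x hK hρ hp hB hN hφ1 hφ2
  have k5 := pet_le h5 K κ ρ m N p x hK hm
  have k2 := H420.tile_sum (fM p) (N1 K N) κ (by omega) x
  have k6 := H420.cn_sub_stp (fM p) (N1 K N) x
  rw [MX_fM] at k6
  have hM0 := MX_nonneg p x
  set W := ∑ k ∈ range (2 ^ ρ), ∑ a ∈ Ico (0:ℤ) (((2 ^ ρ + k : ℕ) : ℤ) * 2 ^ (m + 1)),
        (1 / (((2 ^ ρ + k : ℕ) : ℝ) * (((2 ^ ρ + k : ℕ) : ℝ) * 2 ^ (m + 1))))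
          * ‖PET.Sh (2 ^ ρ + k) (K - ρ - κ - 3) a (Fc p (N + 1)) (x.val : ℤ)‖ with hW
  have hW0 : 0 ≤ W := sum_nonneg fun k _ => sum_nonneg fun a _ => by positivity
  set V := ave (fun y => p y * (if x - y = 0 then 0 else
      2 * (ch (N + 1) (x - y) * φ (x - y) / (1 - ch 1 (x - y))).re)) with hV
  set Ss := ∑ t ∈ Ioo (-(2:ℤ) ^ K) (2 ^ K), p (x - (t : X K)) *
        Real.sin (2 * Real.pi * (N + 1) * t / 2 ^ K) * PET.PP (2 ^ ρ) (K - ρ - κ - 3) t with hSs
  set w := ch (-MM K) x with hw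
  have hwn : ‖w‖ = 1 := H420.norm_ch _ _
  set T := tiles κ (N1 K N) (fM p) x with hT
  set Q := mul (H420.stp κ (N1 K N / 2 ^ κ)) (fM p) x with hQ
  have hTeq : T = mul (H420.stp 0 (N1 K N)) (fM p) x - Q := k2
  set E := CN (N1 K N) (fM p) x - mul (H420.stp 0 (N1 K N)) (fM p) x with hE
  have hCN : CN (N1 K N) (fM p) x = T + Q + E := by rw [hTeq, hE]; ring
  rw [hCN] at k1
  have hre : 2 * (w * (T + Q + E)).re = 2 * (w * T).re + 2 * (w * Q).re + 2 * (w * E).re := by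
    rw [mul_add, mul_add, Complex.add_re, Complex.add_re]; ring
  have b1 : |2 * (w * T).re| ≤ 2 * ‖T‖ := by
    rw [abs_mul, abs_two]
    apply mul_le_mul_of_nonneg_left _ (by norm_num)
    refine (Complex.abs_re_le_norm _).trans ?_
    rw [norm_mul, hwn, one_mul]
  have b2 : |2 * (w * E).re| ≤ 2 * (3 * MX p x) := by
    rw [abs_mul, abs_two]
    apply mul_le_mul_of_nonneg_left _ (by norm_num)
    refine (Complex.abs_re_le_norm _).trans ?_
    rw [norm_mul, hwn, one_mul]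
    exact k6
  have b3 : |2 * (w * Q).re| ≤ 3 * MX p x + (C * (1 + K / 2 ^ ρ) * MX p x
      + C * (N + 1) * 2 ^ ρ * Bp / 2 ^ K) + |c| * (16 * W) := by
    have e1 : 2 * (w * Q).re = (2 * (w * Q).re + V) - (V - c * Ss) - c * Ss := by ring
    rw [e1]
    refine (abs_sub _ _).trans (add_le_add ((abs_sub _ _).trans (add_le_add k3 k4)) ?_)
    rw [abs_mul]
    exact mul_le_mul_of_nonneg_left k5 (abs_nonneg _)
  have b4 : ‖SG N p x‖ ≤ 2 * MX p x + (2 * ‖T‖ + (3 * MX p x + (C * (1 + K / 2 ^ ρ) * MX p x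
      + C * (N + 1) * 2 ^ ρ * Bp / 2 ^ K) + |c| * (16 * W)) + 2 * (3 * MX p x)) := by
    have e1 : SG N p x = (SG N p x - ((2 * (w * (T + Q + E)).re : ℝ) : ℂ))
        + ((2 * (w * (T + Q + E)).re : ℝ) : ℂ) := by ring
    rw [e1]
    refine (norm_add_le _ _).trans (add_le_add k1 ?_)
    rw [Complex.norm_real, Real.norm_eq_abs, hre]
    exact (abs_add_le _ _).trans (add_le_add ((abs_add_le _ _).trans (add_le_add b1 b3)) b2)
  have hr : (0:ℝ) ≤ K / 2 ^ ρ := by positivity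
  have c1 : C * (1 + K / 2 ^ ρ) * MX p x ≤ |C| * (1 + K / 2 ^ ρ) * MX p x := by
    apply mul_le_mul_of_nonneg_right _ hM0
    exact mul_le_mul_of_nonneg_right (le_abs_self C) (by linarith)
  have c2 : C * (N + 1) * 2 ^ ρ * Bp / 2 ^ K ≤ |C| * ((N + 1) * 2 ^ ρ * Bp / 2 ^ K) := by
    have : C * (N + 1) * 2 ^ ρ * Bp / 2 ^ K = C * ((N + 1) * 2 ^ ρ * Bp / 2 ^ K) := by ring
    rw [this]
    exact mul_le_mul_of_nonneg_right (le_abs_self C) (by positivity)
  have c3 : 0 ≤ (N + 1) * 2 ^ ρ * Bp / (2:ℝ) ^ K := by positivity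
  have c4 : (11 + |C| + 16 * |c|) * (1 + K / 2 ^ ρ) * MX p x
      ≥ (11 + |C| * (1 + K / 2 ^ ρ)) * MX p x := by
    apply mul_le_mul_of_nonneg_right _ hM0
    nlinarith [abs_nonneg C, abs_nonneg c, mul_nonneg (abs_nonneg c) hr]
  have c5 : (11 + |C| + 16 * |c|) * (N + 1) * 2 ^ ρ * Bp / 2 ^ K
      ≥ |C| * ((N + 1) * 2 ^ ρ * Bp / 2 ^ K) := by
    have : (11 + |C| + 16 * |c|) * (N + 1) * 2 ^ ρ * Bp / 2 ^ K
        = (11 + |C| + 16 * |c|) * ((N + 1) * 2 ^ ρ * Bp / 2 ^ K) := by ring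
    rw [this]
    apply mul_le_mul_of_nonneg_right _ c3
    linarith [abs_nonneg c]
  have c6 : (11 + |C| + 16 * |c|) * W ≥ |c| * (16 * W) := by
    nlinarith [abs_nonneg C, abs_nonneg c, mul_nonneg (abs_nonneg C) hW0]
  nlinarith [b4, c1, c2, c4, c5, c6]

end Vale.Agent.P091.TOP.H814
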