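import Vale.Agent.P091.TOP.Top0
import Vale.Agent.P091.TOP.H69.Letter
import Vale.Agent.P091.H750.Grid

/-!
# P091, TOP: one grid, all alive points  (helper814)
-/

set_option autoImplicit false

open Finset

noncomputable section

namespace Vale.Agent.P091.TOP.H814

open Vale.Agent.P091.CH Vale.Agent.P091.TOP

variable {K : ℕ}

lemma val_cast (x : X K) : (((x.val : ℕ) : ℤ) : X K) = x := by
  rw [Int.cast_natCast]
  exact ZMod.natCast_zmod_val x

lemma sum_Ico_shift (f : ℤ → ℝ) (s : ℤ) (L : ℤ) :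
    ∑ y ∈ Ico s (s + L), f y = ∑ v ∈ Ico (0:ℤ) L, f (s + v) := by
  have h := Finset.sum_map (Ico (0:ℤ) L) (addLeftEmbedding s) f
  rw [Finset.map_add_left_Ico, add_zero] at h
  exact h

/-- all intervals of length between one and two periods -/
lemma two_periods (p : X K → ℝ) (hp : ∀ y, 0 ≤ p y) (hp1 : ave p ≤ 1) (s : ℤ) (L : ℕ)
    (h1 : 2 ^ K ≤ L) (h2 : L ≤ 2 * 2 ^ K) :
    ∑ y ∈ Ico s (s + (L : ℤ)), p ((y : ℤ) : X K) ≤ 2 * (L : ℝ) := by
  have hs : ∑ y, p y ≤ 2 ^ K := by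
    unfold ave at hp1
    rwa [div_le_one (by positivity)] at hp1
  have h3 : ((2 ^ K : ℕ) : ℝ) ≤ (L : ℝ) := by exact_mod_cast h1
  rw [sum_Ico_shift (fun y => p ((y : ℤ) : X K)) s (L : ℤ)]
  have h4 : (L : ℤ) ≤ ((2 : ℕ) : ℤ) * 2 ^ K := by exact_mod_cast h2
  calc ∑ v ∈ Ico (0:ℤ) (L : ℤ), p (((s + v : ℤ)) : X K)
      ≤ ∑ v ∈ Ico (0:ℤ) (((2 : ℕ) : ℤ) * 2 ^ K), p (((s + v : ℤ)) : X K) := by
        refine sum_le_sum_of_subset_of_nonneg (Ico_subset_Ico_right h4) ?_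
        intro i _ _
        exact hp _
    _ = ((2 : ℕ) : ℝ) * ∑ y, p y := H69.sum_periods s p 2
    _ ≤ 2 * (L : ℝ) := by
        push_cast at h3 ⊢
        linarith

theorem gu_of (hG : H750.GRIDROW) : P_GU := by
  intro C0 hC0
  obtain ⟨C, hC, hG⟩ := hG C0 hC0
  refine ⟨2 * C + 16 * Real.pi * 3 * 2, by positivity, ?_⟩
  intro D hD K ρ k0 r a p N κ U iU c V u W hk hr1 hr2 hp0 hpD hp1 hκ hc hcN hV hVs hW
  set m : ℕ := K - ρ - 1 with hm
  have hm1 : m + 1 = K - ρ := by omega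
  have hr0 : 0 < r := lt_of_lt_of_le (by positivity) hr1
  have hKρ : 2 ^ ρ * 2 ^ (K - ρ) = 2 ^ K := by
    rw [← pow_add]
    congr 1
    omega
  have hL1 : 2 ^ K ≤ r * 2 ^ (m + 1) := by
    rw [hm1, ← hKρ]
    exact Nat.mul_le_mul_right _ hr1
  have hL2 : r * 2 ^ (m + 1) ≤ 2 * 2 ^ K := by
    rw [hm1, ← hKρ, ← mul_assoc, ← pow_succ']
    exact Nat.mul_le_mul_right _ hr2.le
  set Wz : Finset ℤ := W.image (fun x => (x.val : ℤ)) with hWz
  have hK2 : (0:ℝ) < 2 ^ K := by positivity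
  have hmain := hG D hD r m (2 ^ K) a (fun y => p ((y : ℤ) : X K)) hr0 hL1
    (fun y => hp0 _) (fun y => hpD _)
    (fun s => two_periods p hp0 hp1 s (r * 2 ^ (m + 1)) hL1 hL2)
    U (fun k => (c k : ℝ) / 2 ^ K) V (fun y => u ((y : ℤ) : X K))
    (fun y => K - ρ - κ ((y : ℤ) : X K) - 3) Wz ?_ ?_ ?_ ?_ ?_ ?_
  · -- use
    have hlog := H750.log_sq_le hD
    have hlog0 : 0 ≤ Real.log D ^ 2 := sq_nonneg _
    have hMX : ∀ x ∈ W, MX p x ≤ 2 * D := fun x hx => (hW x hx).trans (by linarith)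
    have hinj : Set.InjOn (fun x : X K => (x.val : ℤ)) (W : Set (X K)) := by
      intro x _ y _ h
      have h' : (x.val : ℤ) = (y.val : ℤ) := h
      exact ZMod.val_injective _ (Int.ofNat_inj.1 h')
    rw [hWz, sum_image hinj] at hmain
    have hcard : (W.card : ℝ) ≤ 2 ^ K := by
      have h1 : W.card ≤ Fintype.card (X K) := card_le_univ W
      rw [ZMod.card] at h1
      exact_mod_cast h1
    have hpt : ∀ x ∈ W,
        ‖PET.Sh r (K - ρ - κ x - 3) a (Fc p ((N x : ℝ) + 1)) (x.val : ℤ)‖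
        ≤ ‖∑ i ∈ range (K - ρ - κ (((x.val : ℤ)) : X K) - 3),
          PET.T ((r : ℤ) * 2 ^ i) a (fun y => ((p ((y : ℤ) : X K) : ℝ) : ℂ)
            * Spec.e (-((c (u (((x.val : ℤ)) : X K)) : ℝ) / 2 ^ K * y))) (x.val : ℤ)‖
          + 16 * Real.pi * 3 * (2 * D) := by
      intro x hx
      rw [val_cast x]
      have h1 := H69.letter_norm (K := K) hr0 (K - ρ - κ x - 3) a (x.val : ℤ) p ((N x : ℝ) + 1)
        (c (u x)) (2 ^ K) 3 hK2 ?_
      · rw [val_cast x] at h1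
        have e1 : ‖PET.Sh r (K - ρ - κ x - 3) a (Fc p ((N x : ℝ) + 1)) (x.val : ℤ)‖
          = ‖PET.Sh r (K - ρ - κ x - 3) a (fun y => (p ((y : ℤ) : X K) : ℂ)
            * Spec.e (-(((N x : ℝ) + 1) * y / 2 ^ K))) (x.val : ℤ)‖ := rfl
        have e2 : ∑ i ∈ range (K - ρ - κ x - 3),
          PET.T ((r : ℤ) * 2 ^ i) a (fun y => ((p ((y : ℤ) : X K) : ℝ) : ℂ)
            * Spec.e (-((c (u x) : ℝ) / 2 ^ K * y))) (x.val : ℤ)
          = PET.Sh r (K - ρ - κ x - 3) a (fun y => (p ((y : ℤ) : X K) : ℂ)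
            * Spec.e (-((c (u x) : ℝ) * y / 2 ^ K))) (x.val : ℤ) := by
          unfold PET.Sh
          refine sum_congr rfl fun i _ => ?_
          congr 1
          funext y
          rw [div_mul_eq_mul_div]
        rw [e1, e2]
        refine h1.trans ?_
        have := hMX x hx
        have hpi : 0 ≤ 16 * Real.pi * 3 := by positivity
        nlinarith [mul_le_mul_of_nonneg_left this hpi]
      · have h2 : |((N x : ℝ) + 1) - (c (u x) : ℝ)| ≤ 12 * 2 ^ κ x := by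
          have h3 := hcN x
          have h4 : ((|(N x : ℤ) + 1 - c (u x)| : ℤ) : ℝ) ≤ ((12 * 2 ^ κ x : ℤ) : ℝ) := by
            exact_mod_cast h3
          push_cast at h4
          exact h4
        have h5 : (r : ℝ) * 2 ^ (K - ρ - κ x - 3) ≤ 2 ^ (K - κ x - 2) := by
          have h6 : r * 2 ^ (K - ρ - κ x - 3) ≤ 2 ^ (K - κ x - 2) := by
            have h7 : K - κ x - 2 = (ρ + 1) + (K - ρ - κ x - 3) := by
              have := hκ x
              omega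
            rw [h7, pow_add 2 (ρ + 1)]
            exact Nat.mul_le_mul_right _ hr2.le
          exact_mod_cast h6
        calc |((N x : ℝ) + 1) - (c (u x) : ℝ)| * ((r : ℝ) * 2 ^ (K - ρ - κ x - 3))
            ≤ (12 * 2 ^ κ x) * 2 ^ (K - κ x - 2) := by gcongr
          _ = 3 * (2 ^ κ x * 2 ^ (K - κ x - 2) * 2 ^ 2) := by ring
          _ = 3 * 2 ^ K := by
            rw [← pow_add, ← pow_add]
            congr 2
            have := hκ x
            omega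
    have hC2 : C * D * ((r * 2 ^ (m + 1) : ℕ) : ℝ) ≤ C * D * (2 * 2 ^ K) := by
      have : ((r * 2 ^ (m + 1) : ℕ) : ℝ) ≤ 2 * 2 ^ K := by exact_mod_cast hL2
      have hCD : 0 ≤ C * D := by positivity
      gcongr
    calc ∑ x ∈ W, ‖PET.Sh r (K - ρ - κ x - 3) a (Fc p ((N x : ℝ) + 1)) (x.val : ℤ)‖
        ≤ ∑ x ∈ W, (‖∑ i ∈ range (K - ρ - κ (((x.val : ℤ)) : X K) - 3),
          PET.T ((r : ℤ) * 2 ^ i) a (fun y => ((p ((y : ℤ) : X K) : ℝ) : ℂ)
            * Spec.e (-((c (u (((x.val : ℤ)) : X K)) : ℝ) / 2 ^ K * y))) (x.val : ℤ)‖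
          + 16 * Real.pi * 3 * (2 * D)) := sum_le_sum hpt
      _ = (∑ x ∈ W, ‖∑ i ∈ range (K - ρ - κ (((x.val : ℤ)) : X K) - 3),
          PET.T ((r : ℤ) * 2 ^ i) a (fun y => ((p ((y : ℤ) : X K) : ℝ) : ℂ)
            * Spec.e (-((c (u (((x.val : ℤ)) : X K)) : ℝ) / 2 ^ K * y))) (x.val : ℤ)‖)
          + W.card * (16 * Real.pi * 3 * (2 * D)) := by
          rw [sum_add_distrib, sum_const, nsmul_eq_mul]
      _ ≤ C * D * (2 * 2 ^ K) + 2 ^ K * (16 * Real.pi * 3 * (2 * D)) := by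
          gcongr
          exact hmain.trans hC2
      _ = (2 * C + 16 * Real.pi * 3 * 2) * D * 2 ^ K := by ring
  · -- W in the window
    intro z hz
    rw [hWz, mem_image] at hz
    obtain ⟨x, _, rfl⟩ := hz
    rw [mem_Ico]
    refine ⟨by positivity, ?_⟩
    have := ZMod.val_lt x
    exact_mod_cast this
  · -- letters
    intro k
    have h1 := hc k
    have h2 : (K : ℝ) * 2 ^ (ρ + 1) * |(c k : ℝ)| ≤ 2 ^ K := by
      have h3 : (((K : ℤ) * 2 ^ (ρ + 1) * |c k| : ℤ) : ℝ) ≤ ((2 ^ K : ℤ) : ℝ) := by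
        exact_mod_cast h1
      push_cast at h3
      exact h3
    have h4 : (m : ℝ) ≤ K := by
      have : m ≤ K := by omega
      exact_mod_cast this
    have h5 : (r : ℝ) ≤ 2 ^ (ρ + 1) := by exact_mod_cast hr2.le
    rw [abs_div, abs_of_pos hK2, ← mul_div_assoc, div_le_one hK2]
    calc (m : ℝ) * r * |(c k : ℝ)| ≤ (K : ℝ) * 2 ^ (ρ + 1) * |(c k : ℝ)| := by gcongr
      _ ≤ 2 ^ K := h2
  · -- scales
    intro x _
    omega
  · -- windows
    intro z hz _ s hs1 hs2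
    rw [hWz, mem_image] at hz
    obtain ⟨x, _, rfl⟩ := hz
    rw [val_cast x] at hs2 ⊢
    refine hV x s (r * 2 ^ (K - ρ - κ x - 3 + 1)) ?_ hs1 hs2
    have h7 : K - κ x = (ρ + 1) + (K - ρ - κ x - 3 + 1) + 1 := by
      have := hκ x
      omega
    rw [h7]
    calc r * 2 ^ (K - ρ - κ x - 3 + 1) ≤ 2 ^ (ρ + 1) * 2 ^ (K - ρ - κ x - 3 + 1) :=
          Nat.mul_le_mul_right _ hr2.le
      _ = 2 ^ ((ρ + 1) + (K - ρ - κ x - 3 + 1)) := (pow_add 2 _ _).symm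
      _ ≤ 2 ^ ((ρ + 1) + (K - ρ - κ x - 3 + 1) + 1) :=
          Nat.pow_le_pow_right (by norm_num) (Nat.le_succ _)
  · refine hVs.trans ?_
    have : (2:ℝ) ^ K ≤ ((r * 2 ^ (m + 1) : ℕ) : ℝ) := by exact_mod_cast hL1
    gcongr
  · -- alive
    intro z hz s L hL1' _ hs1 hs2
    rw [hWz, mem_image] at hz
    obtain ⟨x, hx, rfl⟩ := hz
    have h1 := H69.sum_interval_le (K := K) p (L := (L : ℤ)) (left := s) (x := (x.val : ℤ)) hs1 hs2
    rw [val_cast x] at h1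
    rw [sum_Ico_shift (fun y => p ((y : ℤ) : X K)) s (L : ℤ)]
    have h2 := hW x hx
    have h3 : (0:ℝ) ≤ (L : ℝ) := by positivity
    calc ∑ v ∈ Ico (0:ℤ) (L : ℤ), p (((s + v : ℤ)) : X K)
        ≤ ∑ v ∈ Ico (0:ℤ) (L : ℤ), |p (((s + v : ℤ)) : X K)| :=
          sum_le_sum fun v _ => le_abs_self _
      _ ≤ 2 * ((L : ℤ) : ℝ) * MX p x := h1
      _ = 2 * (L : ℝ) * MX p x := by rw [Int.cast_natCast]
      _ ≤ 2 * (L : ℝ) * (1 / 2 * Real.log D ^ 2) := by gcongr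
      _ = Real.log D ^ 2 * (L : ℝ) := by ring

end Vale.Agent.P091.TOP.H814
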