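import Vale.Agent.P091.TOP.Top0

/-!
# P091, TOP: the light part in `L¹` on the alive set  (helper814)
-/

set_option autoImplicit false

open Finset

noncomputable section

namespace Vale.Agent.P091.TOP.H814

open Vale.Agent.P091.CH Vale.Agent.P091.TOP

/-- the sign of a complex number -/
def sgn (z : ℂ) : ℂ := if z = 0 then 0 else (starRingEnd ℂ) z / (‖z‖ : ℂ)

lemma sgn_mul (z : ℂ) : sgn z * z = (‖z‖ : ℂ) := by
  unfold sgn
  split_ifs with h
  · simp [h]
  · have hz : (‖z‖ : ℂ) ≠ 0 := by
      simpa using h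
    rw [div_mul_eq_mul_div, div_eq_iff hz, ← Complex.normSq_eq_conj_mul_self,
      Complex.normSq_eq_norm_sq]
    push_cast
    ring

lemma norm_sgn (z : ℂ) : ‖sgn z‖ ≤ 1 := by
  unfold sgn
  split_ifs with h
  · simp
  · rw [norm_div, RCLike.norm_conj, Complex.norm_real, norm_norm]
    exact (div_self_le_one _)

theorem lu_of (h : P_LIGHTN) : P_LU := by
  obtain ⟨M, hM0, hM⟩ := H420.exists_fwd_bound
  obtain ⟨C, hC⟩ := h (2 * M)
  refine ⟨|C| * 2, by positivity, ?_⟩
  intro D hD K p N κ hK hp0 hpD hN hκ hS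
  set f : X K → ℂ := fM p with hf
  set T : X K → ℂ := fun x => tiles (κ x) (N1 K (N x)) (fM p) x with hT
  have h2K : (2:ℤ) ^ K = 2 * 2 ^ (K - 1) := by
    rw [← pow_succ', show K - 1 + 1 = K by omega]
  have h1 := hC H420.psi H420.psit (H420.isSym_psi hM hM0) (H420.isSym_psit hM hM0) K hK f
    (fun x => sgn (T x)) (fun x => N1 K (N x)) κ univ (Real.exp (-4 * D)) (Real.exp D)
    (Real.exp_pos _) (Real.exp_le_one_iff.2 (by linarith)) ?_ ?_ ?_ hκ hS
  · have e1 : aveC (fun x => sgn (T x) * ∑ r ∈ range 8, ∑ k ∈ range (κ x), ∑ j ∈ range (2 ^ k),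
          (8:ℂ)⁻¹ * (tl k j (N1 K (N x))).len * co H420.psi r f (tl k j (N1 K (N x)))
            * pk H420.psit r (tl k j (N1 K (N x))) x)
        = ((ave (fun x => ‖T x‖) : ℝ) : ℂ) := by
      unfold aveC ave
      push_cast
      congr 1
      refine Finset.sum_congr rfl fun x _ => ?_
      exact sgn_mul (T x)
    rw [e1, Complex.norm_real, Real.norm_eq_abs] at h1
    have h3 : Real.exp (-4 * D) ^ (1/4 : ℝ) = Real.exp (-D) := by
      rw [← Real.exp_mul]
      congr 1
      ring
    have h4 : √(ave (fun x => ‖f x‖ ^ 2)) ≤ Real.exp D := by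
      have h5 : ave (fun x => ‖f x‖ ^ 2) ≤ Real.exp D ^ 2 := by
        unfold ave
        rw [div_le_iff₀ (by positivity)]
        calc ∑ x, ‖f x‖ ^ 2 ≤ ∑ _x : X K, Real.exp D ^ 2 := by
              refine Finset.sum_le_sum fun x _ => ?_
              have : ‖f x‖ ≤ Real.exp D := by
                rw [hf]
                unfold fM
                rw [norm_mul, H420.norm_ch, one_mul, Complex.norm_real, Real.norm_eq_abs,
                  abs_of_nonneg (hp0 x)]
                exact hpD x
              gcongr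
          _ = Real.exp D ^ 2 * 2 ^ K := by
              rw [Finset.sum_const, Finset.card_univ, ZMod.card, nsmul_eq_mul]
              push_cast
              ring
      exact (Real.sqrt_le_left (Real.exp_pos _).le).2 h5
    rw [h3] at h1
    have h6 : Real.exp (-D) * Real.exp D = 1 := by
      rw [← Real.exp_add]; simp
    calc ave (fun x => ‖tiles (κ x) (N1 K (N x)) (fM p) x‖)
        ≤ |ave (fun x => ‖T x‖)| := le_abs_self _
      _ ≤ C * Real.exp (-D) * (√(ave (fun x => ‖f x‖ ^ 2)) + Real.exp D) := h1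
      _ ≤ |C| * Real.exp (-D) * (Real.exp D + Real.exp D) := by
          gcongr
          exact le_abs_self C
      _ = |C| * 2 * (Real.exp (-D) * Real.exp D) := by ring
      _ = |C| * 2 := by rw [h6, mul_one]
  · intro x
    rw [hf]
    unfold fM
    rw [norm_mul, H420.norm_ch, one_mul, Complex.norm_real, Real.norm_eq_abs, abs_of_nonneg (hp0 x)]
    exact hpD x
  · intro x
    simp only [Finset.mem_univ, if_true]
    exact norm_sgn _
  · intro x
    have h7 : (8:ℤ) * ((N x : ℤ) + 1) ≤ 2 ^ K := by exact_mod_cast hN x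
    unfold N1 MM
    constructor
    · have : (0:ℤ) ≤ (N x : ℤ) := by positivity
      linarith
    · linarith

end Vale.Agent.P091.TOP.H814
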