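import Vale.Agent.P091.TOP.H814.Top
import Vale.Agent.P091.TOP.H39.S15
import Vale.Agent.P091.TOP.H847.S3
import Vale.Agent.P091.TOP.H847.CapOf
import Vale.Agent.P091.CH.H645.LightFinal
import Vale.Agent.P091.TOP.H69.Let

/-!
# P091, TOP: everything discharged except `P_S4` and `P_GU`  (helper814)
-/

set_option autoImplicit false

namespace Vale.Agent.P091.TOP.H814

open Vale.Agent.P091.CH Vale.Agent.P091.TOP

theorem sw_of_S4 (h4 : P_S4) : P_SW := sw_of H39.s1 H847.p_S3 h4 H39.s5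

theorem pgrid_of (h4 : P_S4) (hg : P_GU) : H253.PGRID :=
  top (H847.cap_of H43.p_MSU) hg (lu_of H645.p_LIGHTN) (sw_of_S4 h4)

end Vale.Agent.P091.TOP.H814
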