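import Vale.Agent.P091.TOP.H814.Pg
import Vale.Agent.P091.TOP.H814.Gu
import Vale.Agent.P091.TOP.H827.Switch

/-!
# P091: the outer block closed, `Spec.HEAVY → Spec.Q1`  (helper814)
-/

set_option autoImplicit false

open MeasureTheory AddCircle Filter Topology

namespace Vale.Agent.P091.TOP.H814

open Vale.Agent.P091.CH Vale.Agent.P091.TOP

theorem p_SW : P_SW := sw_of_S4 H827.p_S4

theorem pgrid_of_heavy (h : Spec.HEAVY) : H253.PGRID :=
  pgrid_of H827.p_S4 (gu_of (H750.gridrow h))

theorem q1_of_heavy (h : Spec.HEAVY) : Spec.Q1 := by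
  intro T hT f hm hL
  exact H253.ae_convergence_of_PGRID (pgrid_of_heavy h) f hm hL

end Vale.Agent.P091.TOP.H814
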