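import Vale.Agent.P091.TOP.H814.Lu
import Vale.Agent.P091.TOP.H814.Sw
import Vale.Agent.P091.TOP.H39.Trunc
import Vale.Agent.P091.H253.Grid

/-!
# P091, TOP: `PGRID` from the four closed pieces  (helper814)
-/

set_option autoImplicit false

open Finset

noncomputable section

namespace Vale.Agent.P091.TOP.H814

open Vale.Agent.P091.CH Vale.Agent.P091.TOP

/-- all size conditions hold for large `K` -/
lemma large (k0 N0 : ℕ) (D : ℝ) : ∃ K0 : ℕ, ∀ K : ℕ, K0 ≤ K → ∃ ρ : ℕ,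
    8 ≤ K ∧ 4 ≤ ρ ∧ k0 + ρ + 3 ≤ K ∧ k0 + 6 ≤ K ∧ 8 * (N0 + 1) ≤ 2 ^ K ∧ K ≤ 2 ^ ρ ∧
    K * 2 ^ (ρ + 1) * (13 * 2 ^ k0) ≤ 2 ^ K ∧
    ((N0 : ℝ) + 1) * 2 ^ ρ * Real.exp D ≤ 2 ^ K := by
  obtain ⟨E, hE⟩ := exists_nat_ge (Real.exp D)
  set big : ℕ := 416 * 2 ^ k0 + 16 * (N0 + 1) * E + 8 * (N0 + 1) + 128 * 2 ^ k0 with hbig
  have hbig0 : (0:ℝ) < big := by
    have : 0 < big := by rw [hbig]; positivity
    exact_mod_cast this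
  have ht := tendsto_pow_const_div_const_pow_of_one_lt 2 (r := (2:ℝ)) (by norm_num)
  have h1 := (ht.eventually (gt_mem_nhds (by positivity : (0:ℝ) < 1 / big))).and
    (Filter.eventually_ge_atTop 8)
  obtain ⟨K0, hK0⟩ := Filter.eventually_atTop.1 h1
  refine ⟨K0, fun K hK => ⟨Nat.log 2 K + 4, ?_⟩⟩
  obtain ⟨h2, h8⟩ := hK0 K hK
  have h3 : K ^ 2 * big ≤ 2 ^ K := by
    have h4 : (K:ℝ) ^ 2 * big < 2 ^ K := by
      rw [div_lt_div_iff₀ (by positivity) hbig0] at h2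
      linarith
    exact_mod_cast h4.le
  have hK1 : K ≠ 0 := by omega
  have h5 : 2 ^ Nat.log 2 K ≤ K := Nat.pow_log_le_self 2 hK1
  have h6 : K < 2 ^ (Nat.log 2 K + 1) := Nat.lt_pow_succ_log_self (by norm_num) K
  have h7 : 2 ^ (Nat.log 2 K + 4) ≤ 16 * K := by
    rw [pow_add]; omega
  have hKK : K ≤ K ^ 2 := by nlinarith
  have h1K : 1 ≤ K ^ 2 := Nat.one_le_pow _ _ (by omega)
  have hb1 : K ^ 2 * (416 * 2 ^ k0) ≤ 2 ^ K :=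
    le_trans (Nat.mul_le_mul_left _ (by rw [hbig]; omega)) h3
  have hb2 : K ^ 2 * (16 * (N0 + 1) * E) ≤ 2 ^ K :=
    le_trans (Nat.mul_le_mul_left _ (by rw [hbig]; omega)) h3
  have hb3 : K ^ 2 * (8 * (N0 + 1)) ≤ 2 ^ K :=
    le_trans (Nat.mul_le_mul_left _ (by rw [hbig]; omega)) h3
  have hb4 : K ^ 2 * (128 * 2 ^ k0) ≤ 2 ^ K :=
    le_trans (Nat.mul_le_mul_left _ (by rw [hbig]; omega)) h3
  have hk0 : 1 ≤ 2 ^ k0 := Nat.one_le_two_pow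
  refine ⟨h8, by omega, ?_, ?_, ?_, ?_, ?_, ?_⟩
  · rw [← Nat.pow_le_pow_iff_right (a := 2) (by norm_num)]
    calc 2 ^ (k0 + (Nat.log 2 K + 4) + 3) = 8 * 2 ^ k0 * 2 ^ (Nat.log 2 K + 4) := by
          rw [pow_add, pow_add]; ring
      _ ≤ 8 * 2 ^ k0 * (16 * K) := Nat.mul_le_mul_left _ h7
      _ = K * (128 * 2 ^ k0) := by ring
      _ ≤ K ^ 2 * (128 * 2 ^ k0) := Nat.mul_le_mul_right _ hKK
      _ ≤ 2 ^ K := hb4
  · rw [← Nat.pow_le_pow_iff_right (a := 2) (by norm_num)]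
    calc 2 ^ (k0 + 6) = 64 * 2 ^ k0 := by rw [pow_add]; ring
      _ ≤ 1 * (128 * 2 ^ k0) := by omega
      _ ≤ K ^ 2 * (128 * 2 ^ k0) := Nat.mul_le_mul_right _ h1K
      _ ≤ 2 ^ K := hb4
  · calc 8 * (N0 + 1) = 1 * (8 * (N0 + 1)) := by ring
      _ ≤ K ^ 2 * (8 * (N0 + 1)) := Nat.mul_le_mul_right _ h1K
      _ ≤ 2 ^ K := hb3
  · refine h6.le.trans ?_
    exact Nat.pow_le_pow_right (by norm_num) (by omega)
  · calc K * 2 ^ (Nat.log 2 K + 4 + 1) * (13 * 2 ^ k0)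
        = K * 2 ^ (Nat.log 2 K + 4) * (26 * 2 ^ k0) := by rw [pow_succ]; ring
      _ ≤ K * (16 * K) * (26 * 2 ^ k0) := by gcongr
      _ = K ^ 2 * (416 * 2 ^ k0) := by ring
      _ ≤ 2 ^ K := hb1
  · have h9 : (N0 + 1) * 2 ^ (Nat.log 2 K + 4) * E ≤ 2 ^ K := by
      calc (N0 + 1) * 2 ^ (Nat.log 2 K + 4) * E ≤ (N0 + 1) * (16 * K) * E := by gcongr
        _ = K * (16 * (N0 + 1) * E) := by ring
        _ ≤ K ^ 2 * (16 * (N0 + 1) * E) := Nat.mul_le_mul_right _ hKK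
        _ ≤ 2 ^ K := hb2
    calc ((N0 : ℝ) + 1) * 2 ^ (Nat.log 2 K + 4) * Real.exp D
        ≤ ((N0 : ℝ) + 1) * 2 ^ (Nat.log 2 K + 4) * E := by gcongr
      _ ≤ 2 ^ K := by exact_mod_cast h9

lemma log_sq_le {D : ℝ} (hD : 2 ≤ D) : Real.log D ^ 2 ≤ 4 * D := by
  have h0 : 0 < D := by linarith
  have h1 : Real.log (√D) ≤ √D - 1 := Real.log_le_sub_one_of_pos (Real.sqrt_pos.2 h0)
  rw [Real.log_sqrt h0.le] at h1
  have h2 : 0 ≤ Real.log D := Real.log_nonneg (by linarith)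
  have h3 : √D ^ 2 = D := Real.sq_sqrt h0.le
  have h4 : 0 ≤ √D := Real.sqrt_nonneg _
  have h5 : Real.log D ≤ 2 * √D := by linarith
  calc Real.log D ^ 2 ≤ (2 * √D) ^ 2 := by gcongr
    _ = 4 * D := by rw [mul_pow, h3]; norm_num

/-- the weights of the grids -/
def wg (ρ m k : ℕ) : ℝ :=
  1 / (((2 ^ ρ + k : ℕ) : ℝ) * (((2 ^ ρ + k : ℕ) : ℝ) * 2 ^ (m + 1)))

lemma wg_nonneg (ρ m k : ℕ) : 0 ≤ wg ρ m k := by
  unfold wg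
  positivity

theorem top (hc : P_CAP) (hg : P_GU) (hl : P_LU) (hs : P_SW) : H253.PGRID := by
  obtain ⟨C1, hC1, hc⟩ := hc
  obtain ⟨C2, hC2, hg⟩ := hg (4 + C1) (by positivity)
  obtain ⟨C3, hC3, hl⟩ := hl
  obtain ⟨C4', hs⟩ := hs
  set C4 : ℝ := |C4'| with hC4
  have hC40 : 0 ≤ C4 := abs_nonneg _
  refine ⟨2 * C3 + C4 * C2 + 4 * C4 + C4, 1 / 2, by positivity, by norm_num, ?_⟩
  intro D hD N0
  set k0 : ℕ := N0 + 1 with hk0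
  obtain ⟨K0, hK0⟩ := large k0 N0 D
  refine ⟨K0, ?_⟩
  intro K hK f hf0 hfD hf1 N hN
  obtain ⟨ρ, h8, h4ρ, hkρ, hk6, hN8, hKρ, hlet, hlast⟩ := hK0 K hK
  have hk0' : N0 + 1 ≤ 2 ^ k0 := (Nat.lt_two_pow_self (n := k0)).le.trans' (by omega)
  obtain ⟨κ, U, iU, c, V, u, hκ, hS, hcb, hcN, hV, hVs⟩ := hc K k0 N0 N (Real.exp (-4 * D))
    (Real.exp_pos _) (Real.exp_le_one_iff.2 (by linarith)) hk6 hN8 hk0' hN
  set W : Finset (X K) := univ.filter (fun x => MX f x ≤ 1 / 2 * Real.log D ^ 2) with hW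
  have hK2 : (0:ℝ) < 2 ^ K := by positivity
  -- the light part
  have hlight := hl D hD K f N κ h8 hf0 hfD
    (fun x => le_trans (Nat.mul_le_mul_left _ (Nat.succ_le_succ (hN x))) hN8)
    (fun x => by have := hκ x; omega) hS
  -- the letters
  have hlet' : ∀ k, (K:ℤ) * 2 ^ (ρ + 1) * |c k| ≤ 2 ^ K := by
    intro k
    calc (K:ℤ) * 2 ^ (ρ + 1) * |c k| ≤ (K:ℤ) * 2 ^ (ρ + 1) * (13 * 2 ^ k0) := by
          have := hcb k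
          gcongr
      _ ≤ 2 ^ K := by exact_mod_cast hlet
  have hVs' : ∑ k, ((V k).card : ℝ) ≤ Real.exp ((4 + C1) * D) * 2 ^ K := by
    have e1 : Real.exp (4 * D) * Real.exp (-4 * D) = 1 := by
      rw [← Real.exp_add]; simp
    have e2 : C1 ≤ Real.exp (C1 * D) := by
      have := Real.add_one_le_exp (C1 * D)
      nlinarith
    calc ∑ k, ((V k).card : ℝ)
        = Real.exp (4 * D) * ((∑ k, ((V k).card : ℝ)) * Real.exp (-4 * D)) := by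
          rw [mul_comm (∑ k, ((V k).card : ℝ)), ← mul_assoc, e1, one_mul]
      _ ≤ Real.exp (4 * D) * (C1 * 2 ^ K) := by gcongr
      _ ≤ Real.exp (4 * D) * (Real.exp (C1 * D) * 2 ^ K) := by gcongr
      _ = Real.exp ((4 + C1) * D) * 2 ^ K := by
          rw [← mul_assoc, ← Real.exp_add]
          congr 2
          ring
  -- the grids
  set m : ℕ := K - ρ - 3 with hm
  have hgrid : ∀ k ∈ range (2 ^ ρ), ∀ a : ℤ,
      ∑ x ∈ W, ‖PET.Sh (2 ^ ρ + k) (K - ρ - κ x - 3) a (Fc f ((N x : ℝ) + 1)) (x.val : ℤ)‖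
        ≤ C2 * D * 2 ^ K := by
    intro k hk a
    have hk' := mem_range.1 hk
    exact hg D hD K ρ k0 (2 ^ ρ + k) a f N κ U c V u W hkρ (by omega)
      (by rw [pow_succ]; omega) hf0 hfD hf1 hκ hlet' hcN hV hVs'
      (fun x hx => (mem_filter.1 hx).2)
  -- the pointwise bound
  have hpt : ∀ x ∈ W, ‖TOP.SG (N x) f x‖ ≤ 2 * ‖tiles (κ x) (N1 K (N x)) (fM f) x‖
      + C4 * ∑ k ∈ range (2 ^ ρ), ∑ a ∈ Ico (0:ℤ) (((2 ^ ρ + k : ℕ) : ℤ) * 2 ^ (m + 1)),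
        wg ρ m k * ‖PET.Sh (2 ^ ρ + k) (K - ρ - κ x - 3) a (Fc f ((N x : ℝ) + 1)) (x.val : ℤ)‖
      + (4 * C4 * D + C4 * D) := by
    intro x hx
    have hx' := (mem_filter.1 hx).2
    have h1 := hs K (κ x) ρ m (N x) f (Real.exp D) x (by have := hκ x; omega) h4ρ (by omega)
      hf0 hfD (le_trans (Nat.mul_le_mul_left _ (Nat.succ_le_succ (hN x))) hN8)
    have hsum0 : 0 ≤ ∑ k ∈ range (2 ^ ρ), ∑ a ∈ Ico (0:ℤ) (((2 ^ ρ + k : ℕ) : ℤ) * 2 ^ (m + 1)),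
        wg ρ m k * ‖PET.Sh (2 ^ ρ + k) (K - ρ - κ x - 3) a (Fc f ((N x : ℝ) + 1))
          (x.val : ℤ)‖ :=
      sum_nonneg fun k _ => sum_nonneg fun a _ => mul_nonneg (wg_nonneg _ _ _) (norm_nonneg _)
    have hle : C4' ≤ C4 := le_abs_self _
    have hMX0 := H814.MX_nonneg f x
    have h2 : (1 + (K:ℝ) / 2 ^ ρ) * MX f x ≤ 4 * D := by
      have h3 : (K:ℝ) / 2 ^ ρ ≤ 1 := by
        rw [div_le_one (by positivity)]
        exact_mod_cast hKρ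
      have h4 := log_sq_le hD
      calc (1 + (K:ℝ) / 2 ^ ρ) * MX f x ≤ (1 + 1) * (1 / 2 * Real.log D ^ 2) := by gcongr
        _ ≤ 4 * D := by linarith
    have h5 : ((N x : ℝ) + 1) * 2 ^ ρ * Real.exp D / 2 ^ K ≤ D := by
      rw [div_le_iff₀ hK2]
      have h6 : ((N x : ℝ) + 1) * 2 ^ ρ * Real.exp D ≤ ((N0 : ℝ) + 1) * 2 ^ ρ * Real.exp D := by
        have : (N x : ℝ) ≤ N0 := by exact_mod_cast hN x
        gcongr
      nlinarith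
    have hpos1 : 0 ≤ (1 + (K:ℝ) / 2 ^ ρ) * MX f x := by positivity
    have hpos2 : 0 ≤ ((N x : ℝ) + 1) * 2 ^ ρ * Real.exp D / 2 ^ K := by positivity
    calc ‖TOP.SG (N x) f x‖ ≤ _ := h1
      _ = 2 * ‖tiles (κ x) (N1 K (N x)) (fM f) x‖
        + C4' * ∑ k ∈ range (2 ^ ρ), ∑ a ∈ Ico (0:ℤ) (((2 ^ ρ + k : ℕ) : ℤ) * 2 ^ (m + 1)),
        wg ρ m k * ‖PET.Sh (2 ^ ρ + k) (K - ρ - κ x - 3) a (Fc f ((N x : ℝ) + 1)) (x.val : ℤ)‖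
        + C4' * ((1 + (K:ℝ) / 2 ^ ρ) * MX f x)
        + C4' * (((N x : ℝ) + 1) * 2 ^ ρ * Real.exp D / 2 ^ K) := by
          unfold wg
          ring
      _ ≤ 2 * ‖tiles (κ x) (N1 K (N x)) (fM f) x‖
        + C4 * ∑ k ∈ range (2 ^ ρ), ∑ a ∈ Ico (0:ℤ) (((2 ^ ρ + k : ℕ) : ℤ) * 2 ^ (m + 1)),
        wg ρ m k * ‖PET.Sh (2 ^ ρ + k) (K - ρ - κ x - 3) a (Fc f ((N x : ℝ) + 1)) (x.val : ℤ)‖
        + C4 * (4 * D) + C4 * D := by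
          gcongr
      _ = _ := by ring
  -- summation
  have hswap : ∑ x ∈ W, ∑ k ∈ range (2 ^ ρ),
      ∑ a ∈ Ico (0:ℤ) (((2 ^ ρ + k : ℕ) : ℤ) * 2 ^ (m + 1)),
        wg ρ m k * ‖PET.Sh (2 ^ ρ + k) (K - ρ - κ x - 3) a (Fc f ((N x : ℝ) + 1)) (x.val : ℤ)‖
      ≤ C2 * D * 2 ^ K := by
    rw [sum_comm]
    calc ∑ k ∈ range (2 ^ ρ), ∑ x ∈ W, ∑ a ∈ Ico (0:ℤ) (((2 ^ ρ + k : ℕ) : ℤ) * 2 ^ (m + 1)),
        wg ρ m k * ‖PET.Sh (2 ^ ρ + k) (K - ρ - κ x - 3) a (Fc f ((N x : ℝ) + 1)) (x.val : ℤ)‖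
        = ∑ k ∈ range (2 ^ ρ), ∑ a ∈ Ico (0:ℤ) (((2 ^ ρ + k : ℕ) : ℤ) * 2 ^ (m + 1)),
          wg ρ m k * ∑ x ∈ W,
            ‖PET.Sh (2 ^ ρ + k) (K - ρ - κ x - 3) a (Fc f ((N x : ℝ) + 1)) (x.val : ℤ)‖ := by
          refine sum_congr rfl fun k _ => ?_
          rw [sum_comm]
          refine sum_congr rfl fun a _ => ?_
          rw [mul_sum]
      _ ≤ ∑ k ∈ range (2 ^ ρ), ∑ a ∈ Ico (0:ℤ) (((2 ^ ρ + k : ℕ) : ℤ) * 2 ^ (m + 1)),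
          wg ρ m k * (C2 * D * 2 ^ K) := by
          refine sum_le_sum fun k hk => sum_le_sum fun a _ => ?_
          exact mul_le_mul_of_nonneg_left (hgrid k hk a) (wg_nonneg _ _ _)
      _ = (∑ k ∈ range (2 ^ ρ), ∑ _a ∈ Ico (0:ℤ) (((2 ^ ρ + k : ℕ) : ℤ) * 2 ^ (m + 1)),
          wg ρ m k) * (C2 * D * 2 ^ K) := by
          simp_rw [sum_mul]
      _ ≤ 1 * (C2 * D * 2 ^ K) := by
          gcongr
          exact H39.weight_le (2 ^ ρ) m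
      _ = C2 * D * 2 ^ K := one_mul _
  have hcardW : (W.card : ℝ) ≤ 2 ^ K := by
    have h1 : W.card ≤ Fintype.card (X K) := card_le_univ W
    rw [ZMod.card] at h1
    exact_mod_cast h1
  unfold ave at hlight ⊢
  rw [div_le_iff₀ hK2] at hlight ⊢
  rw [← sum_filter]
  calc ∑ x ∈ W, ‖TOP.SG (N x) f x‖
      ≤ ∑ x ∈ W, (2 * ‖tiles (κ x) (N1 K (N x)) (fM f) x‖
      + C4 * ∑ k ∈ range (2 ^ ρ), ∑ a ∈ Ico (0:ℤ) (((2 ^ ρ + k : ℕ) : ℤ) * 2 ^ (m + 1)),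
        wg ρ m k * ‖PET.Sh (2 ^ ρ + k) (K - ρ - κ x - 3) a (Fc f ((N x : ℝ) + 1)) (x.val : ℤ)‖
      + (4 * C4 * D + C4 * D)) := sum_le_sum hpt
    _ = 2 * ∑ x ∈ W, ‖tiles (κ x) (N1 K (N x)) (fM f) x‖
      + C4 * ∑ x ∈ W, ∑ k ∈ range (2 ^ ρ),
        ∑ a ∈ Ico (0:ℤ) (((2 ^ ρ + k : ℕ) : ℤ) * 2 ^ (m + 1)),
        wg ρ m k * ‖PET.Sh (2 ^ ρ + k) (K - ρ - κ x - 3) a (Fc f ((N x : ℝ) + 1)) (x.val : ℤ)‖
      + W.card * (4 * C4 * D + C4 * D) := by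
        rw [sum_add_distrib, sum_add_distrib, sum_const, nsmul_eq_mul, ← mul_sum, ← mul_sum]
    _ ≤ 2 * (C3 * 2 ^ K) + C4 * (C2 * D * 2 ^ K) + 2 ^ K * (4 * C4 * D + C4 * D) := by
        gcongr
        exact le_trans (sum_le_sum_of_subset_of_nonneg (subset_univ _)
          (fun _ _ _ => norm_nonneg _)) hlight
    _ ≤ (2 * C3 + C4 * C2 + 4 * C4 + C4) * D * 2 ^ K := by
        have h1 : 2 * (C3 * 2 ^ K) ≤ 2 * C3 * D * 2 ^ K := by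
          have : C3 * 2 ^ K * 1 ≤ C3 * 2 ^ K * D := by gcongr; linarith
          linarith
        nlinarith

end Vale.Agent.P091.TOP.H814
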